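import Vale.Agent.P254.SP.H448.W1
import Vale.Agent.P254.H156.Two
import Vale.Agent.P254.H721.Cert2

/-!
# Sharp constants of the kernel functions (P254, block SP, row SP-KER)

`r'' ≤ (47/500) nu`, `|w'| ≤ (189/2000) nu`, `w = r' + r r''`, for all real `x`
(helper721's certifier on a compact interval, barriers for the tails).
-/

set_option linter.all false

namespace Vale.Agent.P254.SP.H958

open Real Set Filter Topology
open Vale.Agent.P254.H156 (t lm nu r r1 r2)
open Vale.Agent.P254.SP448 (V Qd w1)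


/-- `b ≥ 1.9 V²`, `b = nu² - V` -/
theorem b_ge (x : ℝ) : 19 / 10 * V x ^ 2 ≤ nu x ^ 2 - V x := by
  have h := SP448.poly_nonneg 1 0 0 (-(19 / 10)) (fun B W hB hW hW1 h => ?_) (-x)
  · rw [SP448.b_eq] at h
    have hV : Vale.Agent.P254.H876.v (-x) = V x := rfl
    rw [hV] at h
    linarith
  · have h1 : B < 19 / 10 * W ^ 2 := by linarith
    have e : 1 * (2 * W * (B + W)) + 0 * (4 * B * W * (B + W) - (1 - W) * B ^ 2)
        + 0 * (2 * W ^ 2 * (B + W) + (1 - W) * B ^ 2) + -(19 / 10) * ((1 - W) * W * (2 * B + W))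
        = W * (B * (19 / 5 * W - 9 / 5) + W * (1 / 10 + 19 / 10 * W)) := by ring
    rw [e]
    refine mul_nonneg hW.le ?_
    by_cases hc : 9 / 19 ≤ W
    · have : 0 ≤ B * (19 / 5 * W - 9 / 5) := mul_nonneg hB.le (by linarith)
      have h3 : 0 ≤ W * (1 / 10 + 19 / 10 * W) := by positivity
      linarith
    · push Not at hc
      have h2 : 19 / 10 * W ^ 2 * (19 / 5 * W - 9 / 5) ≤ B * (19 / 5 * W - 9 / 5) :=
        mul_le_mul_of_nonpos_right h1.le (by linarith)
      have h3 : 0 ≤ W * (1 / 10 - 152 / 100 * W + 722 / 100 * W ^ 2) :=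
        mul_nonneg hW.le (by nlinarith [sq_nonneg (W - 76 / 722)])
      nlinarith

theorem nu_ge {x : ℝ} (h : x ≤ -5) : 5 ≤ nu x := by
  have h1 := H156.nu_eq x
  have h2 := H156.lm_pos x
  linarith

theorem V_lt_sq (x : ℝ) : V x < nu x ^ 2 := by
  have := SP448.b_pos (-x)
  rw [SP448.b_eq] at this
  linarith

/-- `x nu < 1` -/
theorem x_nu_lt (x : ℝ) : x * nu x < 1 := by
  have := H156.one_sub_x_mul_nu_pos x
  linarith

/-- `r'' ≤ (47/500) nu` for all `x` -/
theorem r2_le_nu (x : ℝ) : r2 x ≤ 47 / 500 * nu x := by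
  have hn := H156.nu_pos x
  rcases le_total x (-5) with hx | hx
  · have h1 := H156.r2_lt x
    have h2 := nu_ge hx
    linarith
  · rcases le_total x 8 with hx' | hx'
    · have h := H721.Cert.cert (e := .c 47 500 * .m - H721.Cert.eR2) H721.Cert.envOK_nil 64
        [(8, 10), (4, 48), (2, 24), (1, 101), (2, 205), (1, 1)] (by decide) (by decide +kernel)
        (x := x) (by norm_num; linarith) (by norm_num [H721.Cert.tot]; linarith)
      simp only [H721.Cert.ev_sub, H721.Cert.ev_mul, H721.Cert.ev_c, H721.Cert.ev_m, H721.Cert.ev_eR2] at h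
      push_cast at h
      have e1 : H721.mm x = nu x := rfl
      have e2 : H721.r2 x = r2 x := by
        rw [H721.r2_eq, SP448.r2_eq, add_comm (H721.vv x)]
        rfl
      rw [e1, e2] at h
      linarith
    · have h1 := SP448.r2_lt x
      have h2 := V_lt_sq x
      have h3 := x_nu_lt x
      have h4 : nu x ≤ 1 / 8 := by nlinarith
      nlinarith

/-- `w' ≤ (189/2000) nu` for all `x` -/
theorem w1_le_nu (x : ℝ) : w1 x ≤ 189 / 2000 * nu x := by
  have hn := H156.nu_pos x
  have hb := SP448.b_pos (-x)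
  rw [SP448.b_eq] at hb
  have hV0 := SP448.V_pos x
  have hV1 := SP448.V_lt_one x
  have hk := SP448.nu_mul_w1 x
  have hr0 : 0 < r x := by
    have := H156.r1_lt_half x
    have e1 : r1 x = 1 - r x * nu x := rfl
    by_contra hc
    push Not at hc
    have : r x * nu x ≤ 0 := mul_nonpos_of_nonpos_of_nonneg hc hn.le
    linarith
  rcases le_total x (-5) with hx | hx
  · have h2 := nu_ge hx
    have h3 : r x * nu x < 1 := H156.r_nu_lt_one x
    have h4 : nu x * w1 x ≤ 2 * r x ^ 2 := by
      rw [hk]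
      have : (2 * V x ^ 2 - (1 - V x) * (nu x ^ 2 - V x)) * r x ^ 2 ≤ 2 * r x ^ 2 := by
        refine mul_le_mul_of_nonneg_right ?_ (sq_nonneg _)
        have : 0 ≤ (1 - V x) * (nu x ^ 2 - V x) := mul_nonneg (by linarith) hb.le
        nlinarith
      linarith [sq_nonneg (r2 x)]
    have h5 : r x ^ 2 * nu x ^ 2 ≤ 1 := by
      have : (r x * nu x) ^ 2 ≤ 1 := pow_le_one₀ (by positivity) h3.le
      nlinarith
    have h6 : 25 ≤ nu x ^ 2 := by nlinarith
    have h7 : r x ^ 2 * 25 ≤ 1 := by nlinarith [sq_nonneg (r x)]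
    have h8 : nu x * w1 x ≤ nu x * (189 / 2000 * nu x) := by nlinarith
    exact le_of_mul_le_mul_left h8 hn
  · rcases le_total x 4 with hx' | hx'
    · have h := H721.Cert.cert (e := .c 189 2000 * .m - (.c 2 1 * H721.Cert.eR1 * H721.Cert.eR2
          + .c 2 1 * .r * H721.Cert.eR1 * H721.Cert.eV - .r * .r * (H721.Cert.eL * (.m * .m - H721.Cert.eV))))
        H721.Cert.envOK_nil 64 [(8, 17), (4, 24), (2, 21), (1, 302)] (by decide) (by decide +kernel)
        (x := x) (by norm_num; linarith) (by norm_num [H721.Cert.tot]; linarith)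
      simp only [H721.Cert.ev_sub, H721.Cert.ev_add, H721.Cert.ev_mul, H721.Cert.ev_c, H721.Cert.ev_m, H721.Cert.ev_r,
        H721.Cert.ev_eR2, H721.Cert.ev_eR1, H721.Cert.ev_eV, H721.Cert.ev_eL] at h
      push_cast at h
      have e1 : H721.mm x = nu x := rfl
      have e2 : H721.r2 x = r2 x := by
        rw [H721.r2_eq, SP448.r2_eq, add_comm (H721.vv x)]
        rfl
      have e3 : H721.r x = r x := rfl
      have e4 : H721.vv x = V x := rfl
      have e5 : H721.L x = lm x := rfl
      have e6 : H721.r1 x = r1 x := by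
        rw [H721.r1_eq]; rfl
      rw [e1, e2, e3, e4, e5, e6] at h
      unfold SP448.w1
      linarith
    · have h3 := x_nu_lt x
      have h4 : nu x ≤ 1 / 4 := by nlinarith
      have h5 : V x ≤ 1 / 16 := by nlinarith [V_lt_sq x]
      have h6 := b_ge x
      have h7 := r2_le_nu x
      have h8 := SP448.r2_eq x
      have hQ : 2 * V x ≤ Qd x := by unfold SP448.Qd; linarith
      -- `r V ≤ (547/1000) nu`
      have h9 : r x * V x ≤ 547 / 1000 * nu x := by
        have := mul_le_mul_of_nonneg_left hQ hr0.le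
        linarith
      have h10 : (r x * V x) ^ 2 ≤ (547 / 1000 * nu x) ^ 2 :=
        pow_le_pow_left₀ (by positivity) h9 2
      have h11 : 2 * V x ^ 2 - (1 - V x) * (nu x ^ 2 - V x) ≤ 22 / 100 * V x ^ 2 := by
        have a1 : (1 - V x) * (19 / 10 * V x ^ 2) ≤ (1 - V x) * (nu x ^ 2 - V x) :=
          mul_le_mul_of_nonneg_left h6 (by linarith)
        nlinarith [mul_nonneg (sq_nonneg (V x)) (sub_nonneg.2 h5)]
      have h12 : nu x * w1 x ≤ 22 / 100 * (r x * V x) ^ 2 := by
        rw [hk]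
        have := mul_le_mul_of_nonneg_right h11 (sq_nonneg (r x))
        nlinarith [sq_nonneg (r2 x)]
      have h13 : nu x * w1 x ≤ nu x * (189 / 2000 * nu x) := by nlinarith
      exact le_of_mul_le_mul_left h13 hn

end Vale.Agent.P254.SP.H958
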