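import Vale.Agent.P254.SP.H958.Comm2
import Vale.Agent.P254.SP.H958.Cst
import Vale.Agent.P254.SP.H448.Uniq
import Vale.Agent.P254.SP.H151.ColIface

/-!
# All commutator kernels with numbers, for every `P : F1` (P254, block SP, row SP-KER)

`sig = wσ P x y - 1`.  All statements are for all `x, y` (the diagonal included).
-/

set_option linter.all false

open MeasureTheory Set Filter Topology

namespace Vale.Agent.P254.SP.H958

open Vale.Agent.P254.SP
open Vale.Agent.P254.SP151 (ck)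

variable (P : F1)

theorem nuP_nu (x : ℝ) : nuP P x = H156.nu x := SP448.L'_div_L P x

theorem wσ_ge_one (x y : ℝ) : 0 ≤ wσ P x y - 1 := by
  have h := ker_one P (nuP_anti P) (f := fun _ => 0) (f1 := fun _ => 0) (f2 := fun _ => 0) (c := 1)
    zero_le_one (fun x => hasDerivAt_const x 0) (fun x => hasDerivAt_const x 0)
    (fun x => by simp [(nuP_pos P x).le]) x y
  nlinarith [sq_nonneg (dd (fun _ => (0 : ℝ)) (fun _ => 0) x y - 0)]

theorem r''_le (x : ℝ) : P.r'' x ≤ 47 / 500 * nuP P x := by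
  rw [nuP_nu, SP448.r''_eq P]; exact r2_le_nu x

theorem abs_r''_le (x : ℝ) : |P.r'' x| ≤ 47 / 500 * nuP P x := by
  rw [abs_of_pos (P.r''_pos x)]; exact r''_le P x

/-- `(r[x,y] - r'(x))² ≤ 3 (47/500)² sig` -/
theorem K1 (x y : ℝ) : (dd P.r P.r' x y - P.r' x) ^ 2 ≤ 6627 / 250000 * (wσ P x y - 1) := by
  have h := ker_one P (nuP_anti P) (c := 47 / 500) (by norm_num) P.hr P.hr' (abs_r''_le P) x y
  norm_num at h ⊢
  linarith

/-- symmetrised: `(r[x,y] - (r'(x)+r'(y))/2)² ≤ (3/4) (47/500)² sig` -/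
theorem K1s (x y : ℝ) : (dd P.r P.r' x y - (P.r' x + P.r' y) / 2) ^ 2 ≤
    6627 / 1000000 * (wσ P x y - 1) := by
  have h := ker_symm P (nuP_anti P) (c := 47 / 500) (by norm_num) P.hr P.hr'
    (fun x => (P.r''_pos x).le) (r''_le P) x y
  norm_num at h ⊢
  linarith

/-- derivative of `w = r' + r r''` -/
theorem hasDerivAt_wP (x : ℝ) :
    HasDerivAt (fun x => P.r' x + P.r x * P.r'' x) (SP448.w1 x) x := by
  have e : (fun x => P.r' x + P.r x * P.r'' x) = SP448.w := by
    funext y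
    rw [SP448.r'_eq P, SP448.r_eq P, SP448.r''_eq P]
    rfl
  rw [e]
  exact SP448.hasDerivAt_w x

/-- **the commutator kernel of `StmtUps`**: `ck² ≤ 3 (283/2000)² sig` -/
theorem K3 (x y : ℝ) : ck P x y ^ 2 ≤ 240267 / 4000000 * (wσ P x y - 1) := by
  have h := ker_comm2 P (nuP_anti P) (al1 := SP448.w1) (β := 47 / 500) (γ := 189 / 2000)
    (r''_le P) (by norm_num) (hasDerivAt_wP P) (fun x => ?_) (fun x => ?_) (by norm_num) x y
  · unfold SP151.ck
    norm_num at h ⊢
    linarith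
  · have h1 := SP448.w1_ge x
    have h2 := H156.nu_pos x
    rw [nuP_nu]
    linarith
  · rw [nuP_nu]; exact w1_le_nu x

/-- `θ = r (1 + r')`, `θ' = w + r'²` -/
theorem hasDerivAt_thP (x : ℝ) : HasDerivAt (fun x => P.r x * (1 + P.r' x))
    (P.r' x + P.r x * P.r'' x + P.r' x ^ 2) x := by
  have := (P.hr x).fun_mul ((P.hr' x).const_add 1)
  refine this.congr_deriv ?_
  ring

theorem hasDerivAt_thP1 (x : ℝ) : HasDerivAt (fun x => P.r' x + P.r x * P.r'' x + P.r' x ^ 2)
    (SP448.th2 x) x := by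
  have e : (fun x => P.r' x + P.r x * P.r'' x + P.r' x ^ 2) = SP448.th1 := by
    funext y
    rw [SP448.r'_eq P, SP448.r_eq P, SP448.r''_eq P]
    rfl
  rw [e]
  exact SP448.hasDerivAt_th1 x

theorem abs_th2_le (x : ℝ) : |SP448.th2 x| ≤ 1 / 6 * nuP P x := by
  rw [nuP_nu, abs_le]
  have h1 := SP448.th2_ge x
  have h2 := SP448.th2_le x
  have h3 := H156.nu_pos x
  constructor <;> linarith

/-- one-sided kernel of `θ = r (1 + r')` -/
theorem Kth (x y : ℝ) : (dd (fun x => P.r x * (1 + P.r' x))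
    (fun x => P.r' x + P.r x * P.r'' x + P.r' x ^ 2) x y
      - (P.r' x + P.r x * P.r'' x + P.r' x ^ 2)) ^ 2 ≤ 1 / 12 * (wσ P x y - 1) := by
  have h := ker_one P (nuP_anti P) (c := 1 / 6) (by norm_num) (hasDerivAt_thP P)
    (hasDerivAt_thP1 P) (abs_th2_le P) x y
  norm_num at h ⊢
  linarith

end Vale.Agent.P254.SP.H958
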