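import Vale.Agent.P254.SP.H958.Fin
import Vale.Agent.P254.S3.H533.C2

/-!
# The kernel of `r'` (P254, block SP, row SP-KER): `(r'[x,y] - r''(x))² ≤ 3/400 sig`
-/

set_option linter.all false

open MeasureTheory Set Filter Topology

namespace Vale.Agent.P254.SP.H958

open Vale.Agent.P254.SP

variable (P : F1)

theorem hasDerivAt_r''P (x : ℝ) : HasDerivAt P.r'' (H156.r3 x) x := by
  rw [SP448.r''_eq P]
  exact H156.hasDerivAt_r2 x

/-- one-sided kernel of `r'` with any constant `c` for which `|r'''| ≤ c nu` -/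
theorem K2_of {c : ℝ} (hc : 0 ≤ c) (h : ∀ x, |H156.r3 x| ≤ c * H156.nu x) (x y : ℝ) :
    (dd P.r' P.r'' x y - P.r'' x) ^ 2 ≤ 3 * c ^ 2 * (wσ P x y - 1) :=
  ker_one P (nuP_anti P) hc P.hr' (hasDerivAt_r''P P) (fun x => by rw [nuP_nu]; exact h x) x y

/-- **K2** -/
theorem K2 (x y : ℝ) : (dd P.r' P.r'' x y - P.r'' x) ^ 2 ≤ 3 / 400 * (wσ P x y - 1) := by
  have h := K2_of P (c := 1 / 20) (by norm_num) S3.abs_r3_le x y
  norm_num at h ⊢
  linarith

end Vale.Agent.P254.SP.H958
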