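import Vale.Agent.P254.SP.H958.Comm

/-!
# The commutator kernel, two-sided bound of `α'` (P254, block SP, row SP-KER)

As `Comm.lean`, with `|α'| ≤ γ nu` instead of `0 ≤ α' ≤ γ nu`.
-/

open MeasureTheory Set Filter Topology

namespace Vale.Agent.P254.SP.H958

open Real in
/-- **commutator kernel, sharp form**. -/
theorem kernel_comm2 {L m T J r r1 r2 K al1 : ℝ → ℝ} {β γ : ℝ}
    (hL : ∀ x, HasDerivAt L (m x) x) (hm : Antitone m) (hm0 : ∀ x, 0 ≤ m x)
    (hT : ∀ x, HasDerivAt T (exp (L x)) x) (hJ : ∀ x, HasDerivAt J (L x) x)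
    (hr : ∀ x, HasDerivAt r (r1 x) x) (hr1 : ∀ x, HasDerivAt r1 (r2 x) x)
    (h0 : ∀ x, 0 ≤ r2 x) (hb : ∀ x, r2 x ≤ β * m x) (hβ : 0 ≤ β)
    (hr10 : ∀ x, 0 ≤ r1 x) (hr11 : ∀ x, r1 x ≤ 1 / 2)
    (hK : ∀ x, HasDerivAt K (r1 x ^ 2) x)
    (hal : ∀ x, HasDerivAt (fun x => r1 x + r x * r2 x) (al1 x) x)
    (hg0 : ∀ x, -(γ * m x) ≤ al1 x) (hg : ∀ x, al1 x ≤ γ * m x) (hγ : 0 ≤ γ) (a b : ℝ) :
    exp (L a + L b) * cK r r1 r2 a b ^ 2 ≤ 3 * (γ + β / 2) ^ 2 * Sl L T a b := by
  have hr1mono : Monotone r1 := by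
    apply monotone_of_deriv_nonneg (fun x => (hr1 x).differentiableAt)
    intro x; rw [(hr1 x).deriv]; exact h0 x
  -- antiderivative of `α`
  have hA : ∀ x, HasDerivAt (fun x => r x * (1 + r1 x) - K x) (r1 x + r x * r2 x) x := by
    intro x
    have := ((hr x).fun_mul ((hr1 x).const_add 1)).fun_sub (hK x)
    refine this.congr_deriv ?_
    ring
  -- the square part, left end `p`, base point `q` right or left
  have hsqR : ∀ {p q : ℝ}, p ≤ q →
      0 ≤ K q - K p - 2 * r1 q * (r q - r p) + r1 q ^ 2 * (q - p) ∧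
      K q - K p - 2 * r1 q * (r q - r p) + r1 q ^ 2 * (q - p) ≤
        (r1 q * (q - p) - (r q - r p)) / 2 := by
    intro p q hpq
    have hφ : ∀ s, HasDerivAt (fun s => K s - 2 * r1 q * r s + r1 q ^ 2 * s)
        (r1 s ^ 2 - 2 * r1 q * r1 s + r1 q ^ 2 * 1) s := fun s =>
      ((hK s).fun_sub ((hr s).const_mul (2 * r1 q))).fun_add ((hasDerivAt_id s).const_mul _)
    have hψ : ∀ s, HasDerivAt (fun s => (r1 q * s - r s) / 2 -
        (K s - 2 * r1 q * r s + r1 q ^ 2 * s))
        ((r1 q * 1 - r1 s) / 2 - (r1 s ^ 2 - 2 * r1 q * r1 s + r1 q ^ 2 * 1)) s := fun s =>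
      ((((hasDerivAt_id s).const_mul (r1 q)).fun_sub (hr s)).div_const 2).fun_sub (hφ s)
    constructor
    · have h := monotoneOn_of_deriv_nonneg (convex_Icc p q)
        (fun y _ => (hφ y).continuousAt.continuousWithinAt)
        (fun y _ => (hφ y).differentiableAt.differentiableWithinAt)
        (fun y _ => by rw [(hφ y).deriv]; nlinarith [sq_nonneg (r1 y - r1 q)])
        (left_mem_Icc.2 hpq) (right_mem_Icc.2 hpq) hpq
      simp only at h
      linarith
    · have h := monotoneOn_of_deriv_nonneg (convex_Icc p q)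
        (fun y _ => (hψ y).continuousAt.continuousWithinAt)
        (fun y _ => (hψ y).differentiableAt.differentiableWithinAt)
        (fun y hy => by
          rw [(hψ y).deriv]
          rw [interior_Icc] at hy
          have h1 : r1 y ≤ r1 q := hr1mono hy.2.le
          have h2 := hr10 y
          have h3 := hr11 q
          have h4 : 0 ≤ (r1 q - r1 y) * (1 / 2 - (r1 q - r1 y)) :=
            mul_nonneg (by linarith) (by linarith)
          nlinarith)
        (left_mem_Icc.2 hpq) (right_mem_Icc.2 hpq) hpq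
      simp only at h
      linarith
  have hsqL : ∀ {p q : ℝ}, p ≤ q →
      0 ≤ K q - K p - 2 * r1 p * (r q - r p) + r1 p ^ 2 * (q - p) ∧
      K q - K p - 2 * r1 p * (r q - r p) + r1 p ^ 2 * (q - p) ≤
        ((r q - r p) - r1 p * (q - p)) / 2 := by
    intro p q hpq
    have hφ : ∀ s, HasDerivAt (fun s => K s - 2 * r1 p * r s + r1 p ^ 2 * s)
        (r1 s ^ 2 - 2 * r1 p * r1 s + r1 p ^ 2 * 1) s := fun s =>
      ((hK s).fun_sub ((hr s).const_mul (2 * r1 p))).fun_add ((hasDerivAt_id s).const_mul _)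
    have hψ : ∀ s, HasDerivAt (fun s => (r s - r1 p * s) / 2 -
        (K s - 2 * r1 p * r s + r1 p ^ 2 * s))
        ((r1 s - r1 p * 1) / 2 - (r1 s ^ 2 - 2 * r1 p * r1 s + r1 p ^ 2 * 1)) s := fun s =>
      (((hr s).fun_sub ((hasDerivAt_id s).const_mul (r1 p))).div_const 2).fun_sub (hφ s)
    constructor
    · have h := monotoneOn_of_deriv_nonneg (convex_Icc p q)
        (fun y _ => (hφ y).continuousAt.continuousWithinAt)
        (fun y _ => (hφ y).differentiableAt.differentiableWithinAt)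
        (fun y _ => by rw [(hφ y).deriv]; nlinarith [sq_nonneg (r1 y - r1 p)])
        (left_mem_Icc.2 hpq) (right_mem_Icc.2 hpq) hpq
      simp only at h
      linarith
    · have h := monotoneOn_of_deriv_nonneg (convex_Icc p q)
        (fun y _ => (hψ y).continuousAt.continuousWithinAt)
        (fun y _ => (hψ y).differentiableAt.differentiableWithinAt)
        (fun y hy => by
          rw [(hψ y).deriv]
          rw [interior_Icc] at hy
          have h1 : r1 p ≤ r1 y := hr1mono hy.1.le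
          have h2 := hr10 p
          have h3 := hr11 y
          have h4 : 0 ≤ (r1 y - r1 p) * (1 / 2 - (r1 y - r1 p)) :=
            mul_nonneg (by linarith) (by linarith)
          nlinarith)
        (left_mem_Icc.2 hpq) (right_mem_Icc.2 hpq) hpq
      simp only at h
      linarith
  have hzero : ∀ x, (fun x => - al1 x) x ≤ γ * m x := fun x => by
    have := hg0 x; simp only; linarith
  rcases lt_trichotomy a b with hab | rfl | hab
  · -- `a` left, `b` right
    obtain ⟨⟨u0, u1⟩, v0, v1⟩ := uv_bounds hL hJ hr hr1 h0 hb hab.le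
    have hAr := Ar_right hL hm hJ hab.le
    have hA0 := Ar_nonneg hL hm hm0 hJ hab.le
    have hv2 := v1.trans (mul_le_mul_of_nonneg_left hAr hβ)
    have t1 := taylor_left hL hJ hA hal hg hab.le
    have t2 := taylor_left hL hJ (fun x => (hA x).neg) (fun x => (hal x).neg) hzero hab.le
    simp only [Pi.neg_apply] at t2
    obtain ⟨s1, s2⟩ := hsqR hab.le
    have hI : J b - J a - L a * (b - a) = Ar L J a b := rfl
    rw [hI] at t1 t2
    apply le_slack hL hm hm0 hT hJ hab
    have hid : cK r r1 r2 a b =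
        (r b * (1 + r1 b) - K b - (r a * (1 + r1 a) - K a) - (r1 a + r a * r2 a) * (b - a)) +
        (K b - K a - 2 * r1 b * (r b - r a) + r1 b ^ 2 * (b - a)) := by
      unfold cK; ring
    have g0 : 0 ≤ γ * Ar L J a b := mul_nonneg hγ hA0
    have g1 : 0 ≤ β * Ar L J a b := mul_nonneg hβ hA0
    rw [abs_le, hid]
    constructor <;> linarith
  · simp [Sl, cK]
  · -- `b` left, `a` right
    obtain ⟨⟨u0, u1⟩, v0, v1⟩ := uv_bounds hL hJ hr hr1 h0 hb hab.le
    have hAr := Ar_right hL hm hJ hab.le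
    have hA0 := Ar_nonneg hL hm hm0 hJ hab.le
    have t1 := taylor_right hL hJ hA hal hg hab.le
    have t2 := taylor_right hL hJ (fun x => (hA x).neg) (fun x => (hal x).neg) hzero hab.le
    simp only [Pi.neg_apply] at t2
    obtain ⟨s1, s2⟩ := hsqL hab.le
    rw [Sl_comm, add_comm (L a) (L b)]
    apply le_slack hL hm hm0 hT hJ hab
    have hid : cK r r1 r2 a b =
        ((r1 a + r a * r2 a) * (a - b) - ((r a * (1 + r1 a) - K a) - (r b * (1 + r1 b) - K b))) -
        (K a - K b - 2 * r1 b * (r a - r b) + r1 b ^ 2 * (a - b)) := by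
      unfold cK; ring
    have g0 : 0 ≤ γ * Ar L J b a := mul_nonneg hγ hA0
    have g1 : 0 ≤ β * Ar L J b a := mul_nonneg hβ hA0
    have g2 : γ * (L a * (a - b) - (J a - J b)) ≤ γ * Ar L J b a :=
      mul_le_mul_of_nonneg_left hAr hγ
    rw [abs_le, hid]
    constructor <;> linarith

variable (P : F1)

/-- **the commutator kernel** of `Υ_e`, for `P : F1` -/
theorem ker_comm2 (hm : Antitone (nuP P)) {al1 : ℝ → ℝ} {β γ : ℝ}
    (hb : ∀ x, P.r'' x ≤ β * nuP P x) (hβ : 0 ≤ β)
    (hal : ∀ x, HasDerivAt (fun x => P.r' x + P.r x * P.r'' x) (al1 x) x)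
    (hg0 : ∀ x, -(γ * nuP P x) ≤ al1 x) (hg : ∀ x, al1 x ≤ γ * nuP P x) (hγ : 0 ≤ γ) (x y : ℝ) :
    ((dd P.r P.r' x y - P.r' x) + P.r x * (dd P.r' P.r'' x y - P.r'' x)
      - P.r' y * (dd P.r P.r' x y - P.r' y)) ^ 2 ≤ 3 * (γ + β / 2) ^ 2 * (wσ P x y - 1) := by
  by_cases h : x = y
  · subst h; rw [wσ_self]; simp [dd]
  · have hc : Continuous (fun s => P.r' s ^ 2) :=
      continuous_iff_continuousAt.2 fun s => ((P.hr' s).continuousAt.pow 2)
    have hK : ∀ x, HasDerivAt (fun x => ∫ s in (0 : ℝ)..x, P.r' s ^ 2) (P.r' x ^ 2) x := fun x =>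
      intervalIntegral.integral_hasDerivAt_right (hc.intervalIntegrable _ _)
        hc.aestronglyMeasurable.stronglyMeasurableAtFilter hc.continuousAt
    refine transfer P h ?_ (kernel_comm2 (hasDerivAt_logL P) hm (fun x => (nuP_pos P x).le)
      (hasDerivAt_t' P) (hasDerivAt_JP P) P.hr P.hr' (fun x => (P.r''_pos x).le) hb hβ
      (fun x => (P.r'_pos x).le) (fun x => (P.r'_lt x).le) hK hal hg0 hg hγ x y)
    have h3 : x - y ≠ 0 := sub_ne_zero.2 h
    unfold dd cK
    rw [if_neg h, if_neg h]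
    field_simp
    ring


end Vale.Agent.P254.SP.H958
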