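import Vale.Agent.P254.SP.H958.Master

/-!
# Commutator kernels (P254, block SP, row SP-KER), abstract form

`L' = m ≥ 0` antitone, `T' = exp L`, `J' = L`.  `Sl a b = (T b - T a)^2 - exp (L a + L b) (b-a)^2`
is `(b-a)^2 T'(a) T'(b) sig(a,b)`.  For `r' = r1`, `r1' = r2`, `0 ≤ r2 ≤ β m`, `0 ≤ r1 ≤ 1/2`,
`th = r (1 + r1)`, `-γ₀ m ≤ th'' ≤ γ m` we bound the symmetrised kernel and the kernel
`c(a,b) = (r[a,b] - r1 a) + r a (r1[a,b] - r2 a) - r1 b (r[a,b] - r1 b)`.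
-/

namespace Vale.Agent.P254.SP.H958

open Real Set Filter Topology

section

variable {L m T J : ℝ → ℝ}

/-- `(b-a)^2 T'(a) T'(b) sig(a,b)` -/
noncomputable def Sl (L T : ℝ → ℝ) (a b : ℝ) : ℝ :=
  (T b - T a) ^ 2 - exp (L a + L b) * (b - a) ^ 2

theorem Sl_comm (L T : ℝ → ℝ) (a b : ℝ) : Sl L T a b = Sl L T b a := by
  unfold Sl; rw [add_comm (L b) (L a)]; ring

/-- the area above `L a`, left end `a` -/
noncomputable def Ar (L J : ℝ → ℝ) (a b : ℝ) : ℝ := J b - J a - L a * (b - a)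

theorem Ar_sq_le (hL : ∀ x, HasDerivAt L (m x) x) (hm : Antitone m) (hm0 : ∀ x, 0 ≤ m x)
    (hT : ∀ x, HasDerivAt T (exp (L x)) x) (hJ : ∀ x, HasDerivAt J (L x) x) {a b : ℝ}
    (hab : a < b) : exp (L a + L b) * Ar L J a b ^ 2 ≤ 3 * Sl L T a b := by
  have := master hL hm hm0 hT hJ hab
  unfold Ar Sl
  linarith

/-- pass from a bound by the area to a bound by the slack -/
theorem le_slack (hL : ∀ x, HasDerivAt L (m x) x) (hm : Antitone m) (hm0 : ∀ x, 0 ≤ m x)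
    (hT : ∀ x, HasDerivAt T (exp (L x)) x) (hJ : ∀ x, HasDerivAt J (L x) x) {a b : ℝ}
    (hab : a < b) {C κ : ℝ} (h : |C| ≤ κ * Ar L J a b) :
    exp (L a + L b) * C ^ 2 ≤ 3 * κ ^ 2 * Sl L T a b := by
  have h1 := Ar_sq_le hL hm hm0 hT hJ hab
  have h2 : C ^ 2 ≤ (κ * Ar L J a b) ^ 2 := by
    rw [← sq_abs C]
    exact pow_le_pow_left₀ (abs_nonneg C) h 2
  have h3 := mul_le_mul_of_nonneg_left h2 (exp_pos (L a + L b)).le
  have h4 := mul_le_mul_of_nonneg_left h1 (sq_nonneg κ)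
  nlinarith

/-- the area below `L b` is at most the area above `L a` -/
theorem Ar_right (hL : ∀ x, HasDerivAt L (m x) x) (hm : Antitone m)
    (hJ : ∀ x, HasDerivAt J (L x) x) {a b : ℝ} (hab : a ≤ b) :
    L b * (b - a) - (J b - J a) ≤ Ar L J a b := by
  have := area_lower hL hm hJ hab
  unfold Ar
  linarith

theorem Ar_nonneg (hL : ∀ x, HasDerivAt L (m x) x) (hm : Antitone m) (hm0 : ∀ x, 0 ≤ m x)
    (hJ : ∀ x, HasDerivAt J (L x) x) {a b : ℝ} (hab : a ≤ b) : 0 ≤ Ar L J a b := by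
  have h1 := area_lower hL hm hJ hab
  have hLmono : Monotone L := by
    apply monotone_of_deriv_nonneg (fun x => (hL x).differentiableAt)
    intro x; rw [(hL x).deriv]; exact hm0 x
  have h2 : 0 ≤ (b - a) * (L b - L a) / 2 :=
    div_nonneg (mul_nonneg (by linarith) (sub_nonneg.2 (hLmono hab))) (by norm_num)
  unfold Ar
  linarith

variable {r r1 r2 : ℝ → ℝ} {β : ℝ}

/-- the two one-sided remainders for `0 ≤ r2 ≤ β m` -/
theorem uv_bounds (hL : ∀ x, HasDerivAt L (m x) x) (hJ : ∀ x, HasDerivAt J (L x) x)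
    (hr : ∀ x, HasDerivAt r (r1 x) x) (hr1 : ∀ x, HasDerivAt r1 (r2 x) x)
    (h0 : ∀ x, 0 ≤ r2 x) (hb : ∀ x, r2 x ≤ β * m x) {a b : ℝ} (hab : a ≤ b) :
    (0 ≤ r b - r a - r1 a * (b - a) ∧ r b - r a - r1 a * (b - a) ≤ β * Ar L J a b) ∧
    (0 ≤ r1 b * (b - a) - (r b - r a) ∧
      r1 b * (b - a) - (r b - r a) ≤ β * (L b * (b - a) - (J b - J a))) := by
  have z1 := taylor_left (β := 0) hL hJ (fun x => (hr x).neg) (fun x => (hr1 x).neg)
    (fun x => by have := h0 x; simp [this]) hab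
  have z2 := taylor_right (β := 0) hL hJ (fun x => (hr x).neg) (fun x => (hr1 x).neg)
    (fun x => by have := h0 x; simp [this]) hab
  simp only [Pi.neg_apply] at z1 z2
  refine ⟨⟨by linarith, taylor_left hL hJ hr hr1 hb hab⟩,
    ⟨by linarith, taylor_right hL hJ hr hr1 hb hab⟩⟩

/-- symmetrised kernel: `(r[a,b] - (r1 a + r1 b)/2)^2 ≤ (3/4) β^2 sig` -/
theorem kernel_symm (hL : ∀ x, HasDerivAt L (m x) x) (hm : Antitone m) (hm0 : ∀ x, 0 ≤ m x)
    (hT : ∀ x, HasDerivAt T (exp (L x)) x) (hJ : ∀ x, HasDerivAt J (L x) x)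
    (hr : ∀ x, HasDerivAt r (r1 x) x) (hr1 : ∀ x, HasDerivAt r1 (r2 x) x)
    (h0 : ∀ x, 0 ≤ r2 x) (hb : ∀ x, r2 x ≤ β * m x) (hβ : 0 ≤ β) (a b : ℝ) :
    exp (L a + L b) * (r b - r a - (r1 a + r1 b) / 2 * (b - a)) ^ 2 ≤
      3 / 4 * β ^ 2 * Sl L T a b := by
  have key : ∀ {a b : ℝ}, a < b → exp (L a + L b) * (r b - r a - (r1 a + r1 b) / 2 * (b - a)) ^ 2 ≤
      3 * (β / 2) ^ 2 * Sl L T a b := by
    intro a b hab
    obtain ⟨⟨u0, u1⟩, v0, v1⟩ := uv_bounds hL hJ hr hr1 h0 hb hab.le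
    have hA := Ar_right hL hm hJ hab.le
    have hA' := mul_le_mul_of_nonneg_left hA hβ
    apply le_slack hL hm hm0 hT hJ hab
    rw [abs_le]
    constructor <;> linarith
  rcases lt_trichotomy a b with hab | rfl | hab
  · have := key hab; linarith
  · simp [Sl]
  · have := key hab
    rw [Sl_comm, add_comm (L a) (L b)]
    have e : r b - r a - (r1 a + r1 b) / 2 * (b - a) = -(r a - r b - (r1 b + r1 a) / 2 * (a - b)) := by
      ring
    rw [e, neg_sq]
    linarith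

/-- the commutator kernel, multiplied by `b - a` -/
noncomputable def cK (r r1 r2 : ℝ → ℝ) (a b : ℝ) : ℝ :=
  (r b - r a - r1 a * (b - a)) + r a * (r1 b - r1 a - r2 a * (b - a)) -
    r1 b * (r b - r a - r1 b * (b - a))

/-- **commutator kernel**: `c(a,b)^2 ≤ 3 κ^2 sig(a,b)` -/
theorem kernel_comm {th1 th2 : ℝ → ℝ} {γ γ₀ κ : ℝ}
    (hL : ∀ x, HasDerivAt L (m x) x) (hm : Antitone m) (hm0 : ∀ x, 0 ≤ m x)
    (hT : ∀ x, HasDerivAt T (exp (L x)) x) (hJ : ∀ x, HasDerivAt J (L x) x)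
    (hr : ∀ x, HasDerivAt r (r1 x) x) (hr1 : ∀ x, HasDerivAt r1 (r2 x) x)
    (h0 : ∀ x, 0 ≤ r2 x) (hb : ∀ x, r2 x ≤ β * m x) (hβ : 0 ≤ β)
    (hr10 : ∀ x, 0 ≤ r1 x) (hr11 : ∀ x, r1 x ≤ 1 / 2)
    (hth1 : ∀ x, th1 x = r1 x * (1 + r1 x) + r x * r2 x)
    (hth2 : ∀ x, HasDerivAt th1 (th2 x) x) (hg : ∀ x, th2 x ≤ γ * m x)
    (hg0 : ∀ x, -(γ₀ * m x) ≤ th2 x) (hγ : 0 ≤ γ) (hγ₀ : 0 ≤ γ₀)
    (hκ1 : γ + β / 2 ≤ κ) (hκ2 : γ₀ + 3 / 2 * β ≤ κ) (a b : ℝ) :
    exp (L a + L b) * cK r r1 r2 a b ^ 2 ≤ 3 * κ ^ 2 * Sl L T a b := by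
  have hth : ∀ x, HasDerivAt (fun x => r x * (1 + r1 x)) (th1 x) x := by
    intro x
    have := (hr x).fun_mul ((hr1 x).const_add 1)
    rw [hth1]
    exact this
  have hr1mono : Monotone r1 := by
    apply monotone_of_deriv_nonneg (fun x => (hr1 x).differentiableAt)
    intro x; rw [(hr1 x).deriv]; exact h0 x
  have hgn : ∀ x, (fun x => - th2 x) x ≤ γ₀ * m x := fun x => by
    have := hg0 x; simp only; linarith
  rcases lt_trichotomy a b with hab | rfl | hab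
  · -- `a` is the left end
    obtain ⟨⟨u0, u1⟩, v0, v1⟩ := uv_bounds hL hJ hr hr1 h0 hb hab.le
    have hA := Ar_right hL hm hJ hab.le
    have hA0 := Ar_nonneg hL hm hm0 hJ hab.le
    have hv2 : r1 b * (b - a) - (r b - r a) ≤ β * Ar L J a b :=
      v1.trans (mul_le_mul_of_nonneg_left hA hβ)
    have hd : 0 < b - a := sub_pos.2 hab
    have t1 := taylor_left hL hJ hth hth2 hg hab.le
    have t2 := taylor_left hL hJ (fun x => (hth x).neg) (fun x => (hth2 x).neg) hgn hab.le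
    simp only [Pi.neg_apply] at t2
    set ρ : ℝ := (r b - r a) / (b - a) with hρ
    have hρd : r b - r a = ρ * (b - a) := by rw [hρ]; field_simp
    set u : ℝ := r b - r a - r1 a * (b - a) with hu
    set v : ℝ := r1 b * (b - a) - (r b - r a) with hv
    have hu' : u = (ρ - r1 a) * (b - a) := by rw [hu, hρd]; ring
    have hv' : v = (r1 b - ρ) * (b - a) := by rw [hv, hρd]; ring
    have hρ1 : r1 a ≤ ρ := by
      have : 0 ≤ ρ - r1 a := by
        rw [hu'] at u0; exact nonneg_of_mul_nonneg_left u0 hd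
      linarith
    have hρ2 : ρ ≤ r1 b := by
      have : 0 ≤ r1 b - ρ := by
        rw [hv'] at v0; exact nonneg_of_mul_nonneg_left v0 hd
      linarith
    have hid : cK r r1 r2 a b = (r b * (1 + r1 b) - r a * (1 + r1 a) - th1 a * (b - a))
        - u * (ρ + r1 a) + v * (r1 b - ρ) := by
      rw [hth1, hu', hv']
      unfold cK
      have e1 : r b = r a + ρ * (b - a) := by linarith
      rw [e1]; ring
    have ra0 := hr10 a
    have rb1 := hr11 b
    have w1 : 0 ≤ u * (ρ + r1 a) := mul_nonneg u0 (by linarith)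
    have w2 : u * (ρ + r1 a) ≤ u * 1 := mul_le_mul_of_nonneg_left (by linarith) u0
    have w3 : 0 ≤ v * (r1 b - ρ) := mul_nonneg v0 (by linarith)
    have w4 : v * (r1 b - ρ) ≤ v * (1 / 2) := mul_le_mul_of_nonneg_left (by linarith) v0
    apply le_slack hL hm hm0 hT hJ hab
    have hI : J b - J a - L a * (b - a) = Ar L J a b := rfl
    rw [hI] at t1 t2
    have k1 := mul_le_mul_of_nonneg_right hκ1 hA0
    have k2 := mul_le_mul_of_nonneg_right hκ2 hA0
    have k3 : 0 ≤ β * Ar L J a b := mul_nonneg hβ hA0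
    rw [abs_le, hid]
    constructor <;> linarith
  · simp [Sl, cK]
  · -- `a` is the right end
    obtain ⟨⟨u0, u1⟩, v0, v1⟩ := uv_bounds hL hJ hr hr1 h0 hb hab.le
    have hA := Ar_right hL hm hJ hab.le
    have hA0 := Ar_nonneg hL hm hm0 hJ hab.le
    have hv2 : r1 a * (a - b) - (r a - r b) ≤ β * Ar L J b a :=
      v1.trans (mul_le_mul_of_nonneg_left hA hβ)
    have hd : 0 < a - b := sub_pos.2 hab
    have t1 := taylor_right hL hJ hth hth2 hg hab.le
    have t2 := taylor_right hL hJ (fun x => (hth x).neg) (fun x => (hth2 x).neg) hgn hab.le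
    simp only [Pi.neg_apply] at t2
    set ρ : ℝ := (r a - r b) / (a - b) with hρ
    have hρd : r a - r b = ρ * (a - b) := by rw [hρ]; field_simp
    set u : ℝ := r a - r b - r1 b * (a - b) with hu
    set v : ℝ := r1 a * (a - b) - (r a - r b) with hv
    have hu' : u = (ρ - r1 b) * (a - b) := by rw [hu, hρd]; ring
    have hv' : v = (r1 a - ρ) * (a - b) := by rw [hv, hρd]; ring
    have hρ1 : r1 b ≤ ρ := by
      have : 0 ≤ ρ - r1 b := by
        rw [hu'] at u0; exact nonneg_of_mul_nonneg_left u0 hd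
      linarith
    have hρ2 : ρ ≤ r1 a := by
      have : 0 ≤ r1 a - ρ := by
        rw [hv'] at v0; exact nonneg_of_mul_nonneg_left v0 hd
      linarith
    have hid : cK r r1 r2 a b = (th1 a * (a - b) - (r a * (1 + r1 a) - r b * (1 + r1 b)))
        - v * (ρ + r1 a) - u * (ρ - r1 b) := by
      rw [hth1, hu', hv']
      unfold cK
      have e1 : r b = r a - ρ * (a - b) := by linarith
      rw [e1]; ring
    have rb0 := hr10 b
    have ra1 := hr11 a
    have w1 : 0 ≤ v * (ρ + r1 a) := mul_nonneg v0 (by linarith)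
    have w2 : v * (ρ + r1 a) ≤ v * 1 := mul_le_mul_of_nonneg_left (by linarith) v0
    have w3 : 0 ≤ u * (ρ - r1 b) := mul_nonneg u0 (by linarith)
    have w4 : u * (ρ - r1 b) ≤ u * (1 / 2) := mul_le_mul_of_nonneg_left (by linarith) u0
    rw [Sl_comm, add_comm (L a) (L b)]
    apply le_slack hL hm hm0 hT hJ hab
    have g1 : γ * (L a * (a - b) - (J a - J b)) ≤ γ * Ar L J b a :=
      mul_le_mul_of_nonneg_left hA hγ
    have g2 : γ₀ * (L a * (a - b) - (J a - J b)) ≤ γ₀ * Ar L J b a :=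
      mul_le_mul_of_nonneg_left hA hγ₀
    have k1 := mul_le_mul_of_nonneg_right hκ1 hA0
    have k2 := mul_le_mul_of_nonneg_right hκ2 hA0
    have k3 : 0 ≤ β * Ar L J b a := mul_nonneg hβ hA0
    rw [abs_le, hid]
    constructor <;> linarith

end

end Vale.Agent.P254.SP.H958
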