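import Vale.Agent.P254.SP.IfaceA
import Vale.Agent.P254.SP.H958.Ker

/-!
# Kernel bounds for `P : F1` (P254, block SP, row SP-KER)

`nu = L'/L` is the derivative of `log L = log t'`.  Everything is bounded by the slack `wσ P x y - 1`.
-/

open MeasureTheory Set Filter Topology

namespace Vale.Agent.P254.SP.H958

open Vale.Agent.P254.SP

variable (P : F1)

/-- `(log t')'` -/
noncomputable def nuP (x : ℝ) : ℝ := P.L' x / P.L x

/-- antiderivative of `log t'` -/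
noncomputable def JP (x : ℝ) : ℝ := ∫ s in (0 : ℝ)..x, Real.log (P.L s)

theorem hasDerivAt_logL (x : ℝ) : HasDerivAt (fun s => Real.log (P.L s)) (nuP P x) x :=
  (P.hL x).log (P.L_pos x).ne'

theorem hasDerivAt_t' (x : ℝ) : HasDerivAt P.t (Real.exp (Real.log (P.L x))) x := by
  rw [Real.exp_log (P.L_pos x)]; exact P.ht x

theorem hasDerivAt_JP (x : ℝ) : HasDerivAt (JP P) (Real.log (P.L x)) x := by
  have hc : Continuous (fun s => Real.log (P.L s)) :=
    continuous_iff_continuousAt.2 fun s => (hasDerivAt_logL P s).continuousAt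
  exact intervalIntegral.integral_hasDerivAt_right (hc.intervalIntegrable _ _)
    hc.aestronglyMeasurable.stronglyMeasurableAtFilter hc.continuousAt

theorem nuP_pos (x : ℝ) : 0 < nuP P x := div_pos (P.L'_pos x) (P.L_pos x)

theorem exp_log_add (x y : ℝ) :
    Real.exp (Real.log (P.L x) + Real.log (P.L y)) = P.L x * P.L y := by
  rw [Real.exp_add, Real.exp_log (P.L_pos x), Real.exp_log (P.L_pos y)]

theorem wσ_self (x : ℝ) : wσ P x x = 1 := by
  have := P.L_pos x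
  unfold wσ dd
  rw [if_pos rfl]
  field_simp

theorem wσ_ne {x y : ℝ} (h : x ≠ y) :
    Sl (fun s => Real.log (P.L s)) P.t x y = P.L x * P.L y * (y - x) ^ 2 * (wσ P x y - 1) := by
  have h1 := (P.L_pos x).ne'
  have h2 := (P.L_pos y).ne'
  have h3 : x - y ≠ 0 := sub_ne_zero.2 h
  unfold Sl wσ dd
  rw [if_neg h, exp_log_add]
  field_simp
  ring

/-- transfer: a bound for the numerator gives a bound by the slack -/
theorem transfer {x y K C κ : ℝ} (h : x ≠ y) (hC : C = (y - x) * K)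
    (hb : Real.exp (Real.log (P.L x) + Real.log (P.L y)) * C ^ 2 ≤
      κ * Sl (fun s => Real.log (P.L s)) P.t x y) : K ^ 2 ≤ κ * (wσ P x y - 1) := by
  rw [wσ_ne P h, exp_log_add, hC] at hb
  have h1 := P.L_pos x
  have h2 := P.L_pos y
  have h3 : 0 < (y - x) ^ 2 := by
    have : y - x ≠ 0 := sub_ne_zero.2 h.symm
    positivity
  have hpos : 0 < P.L x * P.L y * (y - x) ^ 2 := by positivity
  refine le_of_mul_le_mul_left ?_ hpos
  linarith

/-- **one-sided kernel** of any `f` with `|f''| ≤ c nu` -/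
theorem ker_one (hm : Antitone (nuP P)) {f f1 f2 : ℝ → ℝ} {c : ℝ} (hc : 0 ≤ c)
    (hf : ∀ x, HasDerivAt f (f1 x) x) (hf1 : ∀ x, HasDerivAt f1 (f2 x) x)
    (hb : ∀ x, |f2 x| ≤ c * nuP P x) (x y : ℝ) :
    (dd f f1 x y - f1 x) ^ 2 ≤ 3 * c ^ 2 * (wσ P x y - 1) := by
  by_cases h : x = y
  · subst h; rw [wσ_self]; simp [dd]
  · refine transfer P h ?_ (kernel (hasDerivAt_logL P) hm (fun x => (nuP_pos P x).le)
      (hasDerivAt_t' P) (hasDerivAt_JP P) hf hf1 hb hc x y)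
    have h3 : x - y ≠ 0 := sub_ne_zero.2 h
    unfold dd
    rw [if_neg h]
    field_simp
    ring

/-- **symmetrised kernel** of any `f` with `0 ≤ f'' ≤ c nu` -/
theorem ker_symm (hm : Antitone (nuP P)) {f f1 f2 : ℝ → ℝ} {c : ℝ} (hc : 0 ≤ c)
    (hf : ∀ x, HasDerivAt f (f1 x) x) (hf1 : ∀ x, HasDerivAt f1 (f2 x) x)
    (h0 : ∀ x, 0 ≤ f2 x) (hb : ∀ x, f2 x ≤ c * nuP P x) (x y : ℝ) :
    (dd f f1 x y - (f1 x + f1 y) / 2) ^ 2 ≤ 3 / 4 * c ^ 2 * (wσ P x y - 1) := by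
  by_cases h : x = y
  · subst h; rw [wσ_self]; simp [dd]
  · refine transfer P h ?_ (kernel_symm (hasDerivAt_logL P) hm (fun x => (nuP_pos P x).le)
      (hasDerivAt_t' P) (hasDerivAt_JP P) hf hf1 h0 hb hc x y)
    have h3 : x - y ≠ 0 := sub_ne_zero.2 h
    unfold dd
    rw [if_neg h]
    field_simp
    ring

/-- **the commutator kernel** of `Υ_e` -/
theorem ker_comm (hm : Antitone (nuP P)) {th1 th2 : ℝ → ℝ} {β γ γ₀ κ : ℝ}
    (hb : ∀ x, P.r'' x ≤ β * nuP P x) (hβ : 0 ≤ β)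
    (hth1 : ∀ x, th1 x = P.r' x * (1 + P.r' x) + P.r x * P.r'' x)
    (hth2 : ∀ x, HasDerivAt th1 (th2 x) x) (hg : ∀ x, th2 x ≤ γ * nuP P x)
    (hg0 : ∀ x, -(γ₀ * nuP P x) ≤ th2 x) (hγ : 0 ≤ γ) (hγ₀ : 0 ≤ γ₀)
    (hκ1 : γ + β / 2 ≤ κ) (hκ2 : γ₀ + 3 / 2 * β ≤ κ) (x y : ℝ) :
    ((dd P.r P.r' x y - P.r' x) + P.r x * (dd P.r' P.r'' x y - P.r'' x)
      - P.r' y * (dd P.r P.r' x y - P.r' y)) ^ 2 ≤ 3 * κ ^ 2 * (wσ P x y - 1) := by
  by_cases h : x = y
  · subst h; rw [wσ_self]; simp [dd]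
  · refine transfer P h ?_ (kernel_comm (hasDerivAt_logL P) hm (fun x => (nuP_pos P x).le)
      (hasDerivAt_t' P) (hasDerivAt_JP P) P.hr P.hr' (fun x => (P.r''_pos x).le) hb hβ
      (fun x => (P.r'_pos x).le) (fun x => (P.r'_lt x).le) hth1 hth2 hg hg0 hγ hγ₀ hκ1 hκ2 x y)
    have h3 : x - y ≠ 0 := sub_ne_zero.2 h
    unfold dd cK
    rw [if_neg h, if_neg h]
    field_simp
    ring

end Vale.Agent.P254.SP.H958
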