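import Mathlib.Analysis.SpecialFunctions.Log.Deriv
import Mathlib.Analysis.SpecialFunctions.ExpDeriv
import Mathlib.Analysis.Calculus.MeanValue
import Mathlib.Analysis.SpecialFunctions.Sqrt

/-!
# The master two-variable inequality for a concave log-density (P254, block SP)

`L` concave and nondecreasing with derivative `m`, `T' = exp L`, `J' = L`.  Then for `a < b`
`exp (L a + L b) * ((b-a)^2 + (J b - J a - L a (b-a))^2 / 3) ≤ (T b - T a)^2`,
i.e. `sig(a,b) ≥ (avg L - L a)^2 / 3`.
-/

namespace Vale.Agent.P254.SP.H958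

open Real Set Filter Topology

/-- Fourth order Taylor lower bound of the exponential on `[0, ∞)`. -/
theorem exp_lower {z : ℝ} (hz : 0 ≤ z) :
    1 + z + z ^ 2 / 2 + z ^ 3 / 6 + z ^ 4 / 24 ≤ exp z := by
  have h := Real.sum_le_exp_of_nonneg hz 5
  have h2 : ∑ i ∈ Finset.range 5, z ^ i / (i.factorial : ℝ)
      = 1 + z + z ^ 2 / 2 + z ^ 3 / 6 + z ^ 4 / 24 := by
    simp [Finset.sum_range_succ, Nat.factorial]
  linarith [h2 ▸ h]

/-- The polynomial core: `y = η + z`, `ι = 2 η + z`. -/
theorem scalar_core {e z : ℝ} (he : 0 ≤ e) (hz : 0 ≤ z) :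
    (1 + 2 * (e + z) * (2 * e + z) / 3 + (2 * (e + z) - (2 * e + z)) *
      (1 + (2 * e + z) ^ 2 / 3)) ^ 2 ≤
    (1 + (2 * (e + z)) + (2 * (e + z)) ^ 2 / 2 + (2 * (e + z)) ^ 3 / 6 +
      (2 * (e + z)) ^ 4 / 24) * (1 + (2 * e + z) ^ 2 / 3) := by
  rw [← sub_nonneg]
  ring_nf
  positivity

/-- Lemma S. -/
theorem scalar_S {y ι : ℝ} (h1 : y ≤ ι) (h2 : ι ≤ 2 * y) :
    1 + 2 * y * ι / 3 + (2 * y - ι) * (1 + ι ^ 2 / 3) ≤ exp y * √(1 + ι ^ 2 / 3) := by
  have hy : 0 ≤ y := by linarith
  have he : 0 ≤ ι - y := by linarith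
  have hz : 0 ≤ 2 * y - ι := by linarith
  have hc := scalar_core he hz
  have e1 : ι - y + (2 * y - ι) = y := by ring
  have e2 : 2 * (ι - y) + (2 * y - ι) = ι := by ring
  rw [e1, e2] at hc
  have hQ : 0 ≤ 1 + ι ^ 2 / 3 := by positivity
  have hE := exp_lower (z := 2 * y) (by linarith)
  have hsq : (1 + 2 * y * ι / 3 + (2 * y - ι) * (1 + ι ^ 2 / 3)) ^ 2 ≤
      (exp y * √(1 + ι ^ 2 / 3)) ^ 2 := by
    have e3 : (exp y * √(1 + ι ^ 2 / 3)) ^ 2 = exp (2 * y) * (1 + ι ^ 2 / 3) := by
      rw [mul_pow, Real.sq_sqrt hQ, ← Real.exp_nat_mul]; norm_num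
    rw [e3]
    exact hc.trans (mul_le_mul_of_nonneg_right hE hQ)
  exact le_of_sq_le_sq hsq (by positivity)

section

variable {L m T J : ℝ → ℝ}

theorem slope_le (hL : ∀ x, HasDerivAt L (m x) x) (hm : Antitone m) {s x : ℝ} (h : s ≤ x) :
    m x * (x - s) ≤ L x - L s := by
  rcases eq_or_lt_of_le h with rfl | h
  · simp
  · obtain ⟨c, hc, hc2⟩ := exists_hasDerivAt_eq_slope L m h
      (fun y _ => (hL y).continuousAt.continuousWithinAt) (fun y _ => hL y)
    have h1 : m x ≤ m c := hm hc.2.le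
    have h2 : 0 < x - s := by linarith
    rw [eq_div_iff h2.ne'] at hc2
    nlinarith

theorem area_lower (hL : ∀ x, HasDerivAt L (m x) x) (hm : Antitone m)
    (hJ : ∀ x, HasDerivAt J (L x) x) {a x : ℝ} (h : a ≤ x) :
    (x - a) * (L x - L a) / 2 ≤ J x - J a - L a * (x - a) := by
  let f : ℝ → ℝ := fun x => J x - L a * (x - a) - (x - a) * (L x - L a) / 2
  have hf : ∀ x, HasDerivAt f (L x - L a * 1 - (1 * (L x - L a) + (x - a) * m x) / 2) x := by
    intro x
    have h1 : HasDerivAt (fun x : ℝ => x - a) 1 x := (hasDerivAt_id x).sub_const a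
    exact ((hJ x).sub (h1.const_mul (L a))).sub ((h1.mul ((hL x).sub_const (L a))).div_const 2)
  have hmono : MonotoneOn f (Ici a) := by
    apply monotoneOn_of_deriv_nonneg (convex_Ici a)
    · exact fun y _ => (hf y).continuousAt.continuousWithinAt
    · exact fun y _ => (hf y).differentiableAt.differentiableWithinAt
    · intro y hy
      rw [(hf y).deriv]
      rw [interior_Ici] at hy
      have := slope_le hL hm (le_of_lt (mem_Ioi.1 hy))
      nlinarith
  have h2 := hmono (mem_Ici.2 le_rfl) (mem_Ici.2 h) h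
  simp only [f] at h2
  linarith

theorem area_upper (hL : ∀ x, HasDerivAt L (m x) x) (hm : Antitone m)
    (hJ : ∀ x, HasDerivAt J (L x) x) {a x : ℝ} (h : a ≤ x) :
    J x - J a - L a * (x - a) ≤ (x - a) * (L x - L a) - m x * (x - a) ^ 2 / 2 := by
  let k : ℝ → ℝ := fun s => L x * (s - a) + m x * (x - s) ^ 2 / 2 - J s
  have hk : ∀ s, HasDerivAt k (L x * 1 + m x * (2 * (x - s) ^ 1 * (-1)) / 2 - L s) s := by
    intro s
    have h1 : HasDerivAt (fun s : ℝ => s - a) 1 s := (hasDerivAt_id s).sub_const a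
    have h2 : HasDerivAt (fun s : ℝ => x - s) (-1) s := (hasDerivAt_id s).const_sub x
    have h3 : HasDerivAt (fun s : ℝ => (x - s) ^ 2) (2 * (x - s) ^ 1 * (-1)) s := by
      simpa using h2.fun_pow 2
    exact ((h1.const_mul (L x)).add ((h3.const_mul (m x)).div_const 2)).sub (hJ s)
  have hmono : MonotoneOn k (Iic x) := by
    apply monotoneOn_of_deriv_nonneg (convex_Iic x)
    · exact fun y _ => (hk y).continuousAt.continuousWithinAt
    · exact fun y _ => (hk y).differentiableAt.differentiableWithinAt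
    · intro y hy
      rw [(hk y).deriv]
      rw [interior_Iic] at hy
      have := slope_le hL hm (le_of_lt (mem_Iio.1 hy))
      nlinarith
  have h2 := hmono (mem_Iic.2 h) (mem_Iic.2 le_rfl) h
  simp only [k] at h2
  nlinarith

/-- derivative of the auxiliary function `W`. -/
theorem W_deriv (hL : ∀ x, HasDerivAt L (m x) x) (hT : ∀ x, HasDerivAt T (exp (L x)) x)
    (hJ : ∀ x, HasDerivAt J (L x) x) {a x : ℝ} (hTx : T x - T a ≠ 0) (h : a < x) :
    HasDerivAt (fun x => log (T x - T a) - (L a + L x) / 2 -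
        log ((x - a) ^ 2 + (J x - J a - L a * (x - a)) ^ 2 / 3) / 2)
      (exp (L x) / (T x - T a) - m x / 2 -
        (2 * (x - a) + 2 * (J x - J a - L a * (x - a)) * (L x - L a) / 3) /
          ((x - a) ^ 2 + (J x - J a - L a * (x - a)) ^ 2 / 3) / 2) x := by
  have h0 : HasDerivAt (fun x : ℝ => x - a) 1 x := (hasDerivAt_id x).sub_const a
  have h1 : HasDerivAt (fun x => T x - T a) (exp (L x)) x := (hT x).sub_const _
  have h2 : HasDerivAt (fun x => (L a + L x) / 2) (m x / 2) x :=
    ((hL x).const_add (L a)).div_const 2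
  have h3 : HasDerivAt (fun x => J x - J a - L a * (x - a)) (L x - L a) x := by
    simpa using ((hJ x).sub_const (J a)).fun_sub (h0.const_mul (L a))
  have h4 : HasDerivAt (fun x => (x - a) ^ 2 + (J x - J a - L a * (x - a)) ^ 2 / 3)
      (2 * (x - a) + 2 * (J x - J a - L a * (x - a)) * (L x - L a) / 3) x := by
    simpa using (h0.fun_pow 2).fun_add ((h3.fun_pow 2).div_const 3)
  have hpos : (x - a) ^ 2 + (J x - J a - L a * (x - a)) ^ 2 / 3 ≠ 0 := by
    have : 0 < (x - a) ^ 2 := by have := sub_pos.2 h; positivity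
    positivity
  exact ((h1.log hTx).fun_sub h2).fun_sub ((h4.log hpos).div_const 2)

/-- pure algebra behind the sign of `W'`. -/
theorem sign_core {d y I M τ E : ℝ} (hd : 0 < d) (h1 : d * y ≤ I)
    (h2 : I ≤ d * (2 * y) - M * d ^ 2 / 2) (hM : 0 ≤ M) (hτ : 0 < τ)
    (h3 : τ ≤ E * √(d ^ 2 + I ^ 2 / 3)) :
    0 ≤ E * exp y / τ - M / 2 - (2 * d + 2 * I * (2 * y) / 3) / (d ^ 2 + I ^ 2 / 3) / 2 := by
  set ι : ℝ := I / d with hι
  have hI : I = ι * d := by rw [hι]; field_simp
  have hι1 : y ≤ ι := by rw [hι, le_div_iff₀ hd]; linarith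
  have hMd : 0 ≤ M * d ^ 2 / 2 := by positivity
  have hι2 : ι ≤ 2 * y := by rw [hι, div_le_iff₀ hd]; linarith
  have hM2 : M / 2 ≤ (2 * y - ι) / d := by
    rw [le_div_iff₀ hd]
    have : (M / 2 * d) * d ≤ (2 * y - ι) * d := by rw [hI] at h2; nlinarith
    exact le_of_mul_le_mul_right this hd
  have hS := scalar_S hι1 hι2
  have hQ : 0 < 1 + ι ^ 2 / 3 := by positivity
  have hP : d ^ 2 + I ^ 2 / 3 = d ^ 2 * (1 + ι ^ 2 / 3) := by rw [hI]; ring
  have hsq : √(d ^ 2 + I ^ 2 / 3) = d * √(1 + ι ^ 2 / 3) := by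
    rw [hP, Real.sqrt_mul (by positivity), Real.sqrt_sq hd.le]
  set q : ℝ := √(1 + ι ^ 2 / 3) with hq
  have hqpos : 0 < q := Real.sqrt_pos.2 hQ
  have hqq : q ^ 2 = 1 + ι ^ 2 / 3 := Real.sq_sqrt hQ.le
  rw [hsq] at h3
  have hA : exp y / (d * q) ≤ E * exp y / τ := by
    rw [div_le_div_iff₀ (by positivity) hτ]
    have := exp_pos y
    nlinarith
  have hB : (2 * d + 2 * I * (2 * y) / 3) / (d ^ 2 + I ^ 2 / 3) / 2
      = (1 + 2 * y * ι / 3) / (d * q ^ 2) := by
    rw [hP, hI, hqq]
    field_simp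
  have hC : exp y / (d * q) = exp y * q / (d * q ^ 2) := by
    field_simp
  have hD : (2 * y - ι) / d = (2 * y - ι) * q ^ 2 / (d * q ^ 2) := by
    field_simp
  rw [← hqq] at hS
  have hF : 0 ≤ (exp y * q - (1 + 2 * y * ι / 3) - (2 * y - ι) * q ^ 2) / (d * q ^ 2) := by
    apply div_nonneg _ (by positivity)
    linarith
  have hG : (exp y * q - (1 + 2 * y * ι / 3) - (2 * y - ι) * q ^ 2) / (d * q ^ 2)
      = exp y / (d * q) - (2 * y - ι) / d - (1 + 2 * y * ι / 3) / (d * q ^ 2) := by
    rw [hC, hD]; ring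
  rw [hG] at hF
  rw [hB]
  linarith

/-- **Master inequality.** -/
theorem master (hL : ∀ x, HasDerivAt L (m x) x) (hm : Antitone m) (hm0 : ∀ x, 0 ≤ m x)
    (hT : ∀ x, HasDerivAt T (exp (L x)) x) (hJ : ∀ x, HasDerivAt J (L x) x) {a b : ℝ}
    (hab : a < b) :
    exp (L a + L b) * ((b - a) ^ 2 + (J b - J a - L a * (b - a)) ^ 2 / 3) ≤ (T b - T a) ^ 2 := by
  have hLmono : Monotone L := by
    apply monotone_of_deriv_nonneg (fun x => (hL x).differentiableAt)
    intro x; rw [(hL x).deriv]; exact hm0 x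
  have hTmono : StrictMono T := by
    apply strictMono_of_deriv_pos
    intro x; rw [(hT x).deriv]; exact exp_pos _
  set W : ℝ → ℝ := fun x => log (T x - T a) - (L a + L x) / 2 -
        log ((x - a) ^ 2 + (J x - J a - L a * (x - a)) ^ 2 / 3) / 2 with hW
  have hTpos : ∀ x, a < x → 0 < T x - T a := fun x hx => sub_pos.2 (hTmono hx)
  have hPpos : ∀ x, a < x → 0 < (x - a) ^ 2 + (J x - J a - L a * (x - a)) ^ 2 / 3 := by
    intro x hx
    have : 0 < (x - a) ^ 2 := by have := sub_pos.2 hx; positivity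
    positivity
  have hsign : ∀ x, a < x → W x ≤ 0 →
      0 ≤ exp (L x) / (T x - T a) - m x / 2 -
        (2 * (x - a) + 2 * (J x - J a - L a * (x - a)) * (L x - L a) / 3) /
          ((x - a) ^ 2 + (J x - J a - L a * (x - a)) ^ 2 / 3) / 2 := by
    intro x hx hWx
    have hd : 0 < x - a := sub_pos.2 hx
    have h1 := area_lower hL hm hJ hx.le
    have h2 := area_upper hL hm hJ hx.le
    have key := sign_core (d := x - a) (y := (L x - L a) / 2)
      (I := J x - J a - L a * (x - a)) (M := m x) (τ := T x - T a)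
      (E := exp ((L a + L x) / 2)) hd (by linarith) (by linarith) (hm0 x) (hTpos x hx) ?_
    · have e1 : exp ((L a + L x) / 2) * exp ((L x - L a) / 2) = exp (L x) := by
        rw [← exp_add]; ring_nf
      have e2 : 2 * ((L x - L a) / 2) = L x - L a := by ring
      rw [e1, e2] at key
      exact key
    · have h3 : log (T x - T a) ≤ (L a + L x) / 2 +
          log ((x - a) ^ 2 + (J x - J a - L a * (x - a)) ^ 2 / 3) / 2 := by
        simp only [hW] at hWx; linarith
      have h4 := exp_le_exp.2 h3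
      rw [exp_log (hTpos x hx), exp_add] at h4
      have h5 : exp (log ((x - a) ^ 2 + (J x - J a - L a * (x - a)) ^ 2 / 3) / 2)
          = √((x - a) ^ 2 + (J x - J a - L a * (x - a)) ^ 2 / 3) := by
        rw [← Real.log_sqrt (hPpos x hx).le, exp_log (Real.sqrt_pos.2 (hPpos x hx))]
      rwa [h5] at h4
  -- the limit at `a`
  have hlim : Tendsto W (𝓝[>] a) (𝓝 0) := by
    have hsT : Tendsto (slope T a) (𝓝[>] a) (𝓝 (exp (L a))) :=
      (hasDerivAt_iff_tendsto_slope.1 (hT a)).mono_left
        (nhdsWithin_mono _ fun x hx => ne_of_gt hx)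
    have hsJ : Tendsto (slope J a) (𝓝[>] a) (𝓝 (L a)) :=
      (hasDerivAt_iff_tendsto_slope.1 (hJ a)).mono_left
        (nhdsWithin_mono _ fun x hx => ne_of_gt hx)
    have hLa : Tendsto L (𝓝[>] a) (𝓝 (L a)) :=
      (hL a).continuousAt.tendsto.mono_left nhdsWithin_le_nhds
    have h1 : Tendsto (fun x => log (slope T a x)) (𝓝[>] a) (𝓝 (L a)) := by
      have := (hsT.log (exp_pos (L a)).ne')
      simpa using this
    have h2 : Tendsto (fun x => log (1 + (slope J a x - L a) ^ 2 / 3)) (𝓝[>] a) (𝓝 0) := by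
      have h3 : Tendsto (fun x => 1 + (slope J a x - L a) ^ 2 / 3) (𝓝[>] a)
          (𝓝 (1 + (L a - L a) ^ 2 / 3)) :=
        (((hsJ.sub_const (L a)).pow 2).div_const 3).const_add 1
      have h4 := h3.log (by simp)
      simpa using h4
    have h5 : Tendsto (fun x => log (slope T a x) - (L a + L x) / 2 -
        log (1 + (slope J a x - L a) ^ 2 / 3) / 2) (𝓝[>] a)
        (𝓝 (L a - (L a + L a) / 2 - 0 / 2)) :=
      (h1.sub ((hLa.const_add (L a)).div_const 2)).sub (h2.div_const 2)
    have h6 : L a - (L a + L a) / 2 - 0 / 2 = 0 := by ring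
    rw [h6] at h5
    refine h5.congr' ?_
    filter_upwards [self_mem_nhdsWithin] with x hx
    have hx' : a < x := hx
    have hd : 0 < x - a := sub_pos.2 hx'
    have e1 : T x - T a = (x - a) * slope T a x := by
      rw [slope_def_field]; field_simp
    have e2 : J x - J a - L a * (x - a) = (x - a) * (slope J a x - L a) := by
      rw [slope_def_field]; field_simp
    have hsp : 0 < slope T a x := by
      rw [slope_def_field]; exact div_pos (hTpos x hx') hd
    have e3 : (x - a) ^ 2 + ((x - a) * (slope J a x - L a)) ^ 2 / 3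
        = (x - a) ^ 2 * (1 + (slope J a x - L a) ^ 2 / 3) := by ring
    simp only [hW]
    rw [e1, e2, e3, log_mul hd.ne' hsp.ne', log_mul (by positivity) (by positivity), log_pow]
    push_cast
    ring
  have hWb : 0 ≤ W b := by
    have hall : ∀ ε : ℝ, 0 < ε → -W b ≤ ε * (1 + (b - a)) := by
      intro ε hε
      have hev : ∀ᶠ x in 𝓝[>] a, -ε < W x := hlim.eventually (lt_mem_nhds (by linarith))
      have hev2 : ∀ᶠ x in 𝓝[>] a, x < b :=
        nhdsWithin_le_nhds (Iio_mem_nhds hab)
      obtain ⟨c, ⟨hc1, hc2⟩, hc3⟩ := ((hev.and hev2).and self_mem_nhdsWithin).exists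
      have hc3 : a < c := hc3
      have hder : ∀ x, a < x → HasDerivAt W (exp (L x) / (T x - T a) - m x / 2 -
        (2 * (x - a) + 2 * (J x - J a - L a * (x - a)) * (L x - L a) / 3) /
          ((x - a) ^ 2 + (J x - J a - L a * (x - a)) ^ 2 / 3) / 2) x :=
        fun x hx => W_deriv hL hT hJ (hTpos x hx).ne' hx
      have hB : ∀ x, HasDerivAt (fun x => ε * (1 + (x - c))) ε x := by
        intro x
        simpa using (((hasDerivAt_id x).sub_const c).const_add 1).const_mul ε
      have := image_le_of_deriv_right_lt_deriv_boundary' (f := fun x => -W x)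
        (f' := fun x => -(exp (L x) / (T x - T a) - m x / 2 -
        (2 * (x - a) + 2 * (J x - J a - L a * (x - a)) * (L x - L a) / 3) /
          ((x - a) ^ 2 + (J x - J a - L a * (x - a)) ^ 2 / 3) / 2)) (a := c) (b := b)
        (fun x hx => (hder x (lt_of_lt_of_le hc3 hx.1)).neg.continuousAt.continuousWithinAt)
        (fun x hx => (hder x (lt_of_lt_of_le hc3 hx.1)).neg.hasDerivWithinAt)
        (B := fun x => ε * (1 + (x - c))) (B' := fun _ => ε)
        (by simp; linarith)
        (fun x _ => (hB x).continuousAt.continuousWithinAt)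
        (fun x _ => (hB x).hasDerivWithinAt)
        (by
          intro x hx hfx
          have hxa : a < x := lt_of_lt_of_le hc3 hx.1
          have h0 : 0 ≤ x - c := sub_nonneg.2 hx.1
          have hpos : 0 < ε * (1 + (x - c)) := by positivity
          have := hsign x hxa (by linarith)
          linarith)
        (x := b) ⟨hc2.le, le_rfl⟩
      have h7 : ε * (1 + (b - c)) ≤ ε * (1 + (b - a)) := by
        apply mul_le_mul_of_nonneg_left _ hε.le; linarith
      linarith
    by_contra hneg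
    push Not at hneg
    have hk : 0 < 1 + (b - a) := by have := sub_pos.2 hab; linarith
    have h8 := hall (-W b / (2 * (1 + (b - a)))) (div_pos (by linarith) (by positivity))
    have h9 : -W b / (2 * (1 + (b - a))) * (1 + (b - a)) = -W b / 2 := by field_simp
    rw [h9] at h8
    linarith
  simp only [hW] at hWb
  have h10 : (L a + L b) / 2 + log ((b - a) ^ 2 + (J b - J a - L a * (b - a)) ^ 2 / 3) / 2
      ≤ log (T b - T a) := by linarith
  have h11 := exp_le_exp.2 (mul_le_mul_of_nonneg_left h10 (by norm_num : (0 : ℝ) ≤ 2))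
  have h12 : 2 * ((L a + L b) / 2 + log ((b - a) ^ 2 +
      (J b - J a - L a * (b - a)) ^ 2 / 3) / 2) = (L a + L b) +
        log ((b - a) ^ 2 + (J b - J a - L a * (b - a)) ^ 2 / 3) := by ring
  have h13 : exp (2 * log (T b - T a)) = (T b - T a) ^ 2 := by
    rw [two_mul, exp_add, exp_log (hTpos b hab)]; ring
  rw [h12, h13, exp_add, exp_log (hPpos b hab)] at h11
  exact h11

/-- second order Taylor comparison, left end. -/
theorem taylor_left {R R1 R2 : ℝ → ℝ} {β : ℝ} (hL : ∀ x, HasDerivAt L (m x) x)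
    (hJ : ∀ x, HasDerivAt J (L x) x) (hR : ∀ x, HasDerivAt R (R1 x) x)
    (hR1 : ∀ x, HasDerivAt R1 (R2 x) x) (hb : ∀ x, R2 x ≤ β * m x) {a b : ℝ} (hab : a ≤ b) :
    R b - R a - R1 a * (b - a) ≤ β * (J b - J a - L a * (b - a)) := by
  have h1 : Monotone (fun x => β * L x - R1 x) := by
    apply monotone_of_deriv_nonneg
      (fun x => (((hL x).const_mul β).fun_sub (hR1 x)).differentiableAt)
    intro x
    rw [(((hL x).const_mul β).fun_sub (hR1 x)).deriv]
    linarith [hb x]
  let f : ℝ → ℝ := fun x => β * (J x - L a * (x - a)) - (R x - R1 a * (x - a))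
  have hf : ∀ x, HasDerivAt f (β * (L x - L a * 1) - (R1 x - R1 a * 1)) x := by
    intro x
    have h0 : HasDerivAt (fun x : ℝ => x - a) 1 x := (hasDerivAt_id x).sub_const a
    exact (((hJ x).fun_sub (h0.const_mul (L a))).const_mul β).fun_sub
      ((hR x).fun_sub (h0.const_mul (R1 a)))
  have hmono : MonotoneOn f (Ici a) := by
    apply monotoneOn_of_deriv_nonneg (convex_Ici a)
    · exact fun y _ => (hf y).continuousAt.continuousWithinAt
    · exact fun y _ => (hf y).differentiableAt.differentiableWithinAt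
    · intro y hy
      rw [(hf y).deriv]
      rw [interior_Ici] at hy
      have := h1 (le_of_lt (mem_Ioi.1 hy))
      simp only at this
      linarith
  have h2 := hmono (mem_Ici.2 le_rfl) (mem_Ici.2 hab) hab
  simp only [f] at h2
  linarith

/-- second order Taylor comparison, right end. -/
theorem taylor_right {R R1 R2 : ℝ → ℝ} {β : ℝ} (hL : ∀ x, HasDerivAt L (m x) x)
    (hJ : ∀ x, HasDerivAt J (L x) x) (hR : ∀ x, HasDerivAt R (R1 x) x)
    (hR1 : ∀ x, HasDerivAt R1 (R2 x) x) (hb : ∀ x, R2 x ≤ β * m x) {a b : ℝ} (hab : a ≤ b) :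
    R1 b * (b - a) - (R b - R a) ≤ β * (L b * (b - a) - (J b - J a)) := by
  have h1 : Monotone (fun x => β * L x - R1 x) := by
    apply monotone_of_deriv_nonneg
      (fun x => (((hL x).const_mul β).fun_sub (hR1 x)).differentiableAt)
    intro x
    rw [(((hL x).const_mul β).fun_sub (hR1 x)).deriv]
    linarith [hb x]
  let f : ℝ → ℝ := fun x => β * (L b * (b - x) + J x) - (R1 b * (b - x) + R x)
  have hf : ∀ x, HasDerivAt f (β * (L b * (-1) + L x) - (R1 b * (-1) + R1 x)) x := by
    intro x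
    have h0 : HasDerivAt (fun x : ℝ => b - x) (-1) x := (hasDerivAt_id x).const_sub b
    exact (((h0.const_mul (L b)).fun_add (hJ x)).const_mul β).fun_sub
      ((h0.const_mul (R1 b)).fun_add (hR x))
  have hmono : AntitoneOn f (Iic b) := by
    apply antitoneOn_of_deriv_nonpos (convex_Iic b)
    · exact fun y _ => (hf y).continuousAt.continuousWithinAt
    · exact fun y _ => (hf y).differentiableAt.differentiableWithinAt
    · intro y hy
      rw [(hf y).deriv]
      rw [interior_Iic] at hy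
      have := h1 (le_of_lt (mem_Iio.1 hy))
      simp only at this
      linarith
  have h2 := hmono (mem_Iic.2 hab) (mem_Iic.2 le_rfl) hab
  simp only [f] at h2
  linarith

/-- **Kernel inequality**, `|R''| ≤ β m`. -/
theorem kernel {R R1 R2 : ℝ → ℝ} {β : ℝ} (hL : ∀ x, HasDerivAt L (m x) x) (hm : Antitone m)
    (hm0 : ∀ x, 0 ≤ m x) (hT : ∀ x, HasDerivAt T (exp (L x)) x)
    (hJ : ∀ x, HasDerivAt J (L x) x) (hR : ∀ x, HasDerivAt R (R1 x) x)
    (hR1 : ∀ x, HasDerivAt R1 (R2 x) x) (hb : ∀ x, |R2 x| ≤ β * m x) (hβ : 0 ≤ β)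
    (a b : ℝ) :
    exp (L a + L b) * (R b - R a - R1 a * (b - a)) ^ 2 ≤
      3 * β ^ 2 * ((T b - T a) ^ 2 - exp (L a + L b) * (b - a) ^ 2) := by
  have hLmono : Monotone L := by
    apply monotone_of_deriv_nonneg (fun x => (hL x).differentiableAt)
    intro x; rw [(hL x).deriv]; exact hm0 x
  have hbu : ∀ x, R2 x ≤ β * m x := fun x => (le_abs_self _).trans (hb x)
  have hbl : ∀ x, (fun x => - R2 x) x ≤ β * m x := fun x => (neg_le_abs _).trans (hb x)
  rcases lt_trichotomy a b with hab | rfl | hab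
  · have hM := master hL hm hm0 hT hJ hab
    have h1 := taylor_left hL hJ hR hR1 hbu hab.le
    have h2 := taylor_left hL hJ (fun x => (hR x).neg) (fun x => (hR1 x).neg) hbl hab.le
    simp only [Pi.neg_apply] at h2
    have h3 : (R b - R a - R1 a * (b - a)) ^ 2 ≤
        (β * (J b - J a - L a * (b - a))) ^ 2 :=
      sq_le_sq' (by linarith) h1
    have h4 := mul_le_mul_of_nonneg_left h3 (exp_pos (L a + L b)).le
    have h5 := mul_le_mul_of_nonneg_left hM (by positivity : 0 ≤ 3 * β ^ 2)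
    nlinarith
  · simp
  · have hM := master hL hm hm0 hT hJ hab
    have h1 := taylor_right hL hJ hR hR1 hbu hab.le
    have h2 := taylor_right hL hJ (fun x => (hR x).neg) (fun x => (hR1 x).neg) hbl hab.le
    simp only [Pi.neg_apply] at h2
    have ha := area_lower hL hm hJ hab.le
    have hI : L a * (a - b) - (J a - J b) ≤ J a - J b - L b * (a - b) := by linarith
    have hI' := mul_le_mul_of_nonneg_left hI hβ
    have hI0 : 0 ≤ J a - J b - L b * (a - b) := by
      have : 0 ≤ (a - b) * (L a - L b) / 2 :=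
        div_nonneg (mul_nonneg (by linarith) (sub_nonneg.2 (hLmono hab.le))) (by norm_num)
      linarith
    have e0 : R b - R a - R1 a * (b - a) = R1 a * (a - b) - (R a - R b) := by ring
    have h3 : (R b - R a - R1 a * (b - a)) ^ 2 ≤
        (β * (J a - J b - L b * (a - b))) ^ 2 := by
      rw [e0]
      exact sq_le_sq' (by linarith) (by linarith)
    have h4 := mul_le_mul_of_nonneg_left h3 (exp_pos (L a + L b)).le
    have h5 := mul_le_mul_of_nonneg_left hM (by positivity : 0 ≤ 3 * β ^ 2)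
    have e1 : exp (L b + L a) = exp (L a + L b) := by rw [add_comm]
    rw [e1] at h5
    nlinarith

end

end Vale.Agent.P254.SP.H958
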